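import Vale.Agent.P159.T1.D.H469.Cov
import Vale.Agent.P159.T1.D.Stmts

/-!
The height at a face is positive with probability bounded from below (finite energy of one face).
-/

open Filter Topology

namespace Vale.Agent.P159.T1.D.H85

open Vale.Agent.P159.H353 Vale.Agent.P159.T1.D Vale.Agent.P159.T1.D.H469

/-! ### the reverse Turan inequality -/

lemma step_up {b : ℝ} (hb : 0 < b) {n : ℤ} (hn : 0 ≤ n) :
    wI b n ≤ (b / (2 * (n + 2)) + 2 * (n + 1) / b) * wI b (n + 1) := by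
  have hn' : (0 : ℝ) ≤ n := by exact_mod_cast hn
  have r1 := T1.H532.wI_rec hb.le (n + 1)
  have r2 := T1.H532.wI_rec hb.le (n + 2)
  rw [show n + 1 - 1 = n by ring, show n + 1 + 1 = n + 2 by ring] at r1
  rw [show n + 2 - 1 = n + 1 by ring] at r2
  push_cast at r1 r2
  have p3 := wI_nonneg hb.le (n + 2 + 1)
  have h2 : wI b (n + 2) ≤ b / (2 * (n + 2)) * wI b (n + 1) := by
    rw [div_mul_eq_mul_div, le_div_iff₀ (by positivity)]
    nlinarith [mul_nonneg hb.le p3]
  have h1 : wI b n = wI b (n + 2) + 2 * (n + 1) / b * wI b (n + 1) := by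
    field_simp
    linarith
  rw [h1]
  linarith

/-- the constant -/
noncomputable def cT (b : ℝ) : ℝ := min (12 / (b ^ 2 + 24)) ((4 * b / (b ^ 2 + 8)) ^ 2)

lemma cT_pos {b : ℝ} (hb : 0 < b) : 0 < cT b := lt_min (by positivity) (by positivity)

lemma cT_le_one (b : ℝ) : cT b ≤ 1 := by
  refine (min_le_left _ _).trans ?_
  rw [div_le_one (by positivity)]
  nlinarith [sq_nonneg b]

lemma turan_pos {b : ℝ} (hb : 0 < b) {n : ℤ} (hn : 0 ≤ n) :
    cT b * wI b n ^ 2 ≤ wI b (n + 1) * wI b (n - 1) := by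
  have p0 := wI_nonneg hb.le n
  have p1 := wI_nonneg hb.le (n + 1)
  have pm := wI_nonneg hb.le (n - 1)
  have hup := step_up hb hn
  rcases hn.eq_or_lt with h | h
  · subst h
    have e1 : wI b (0 - 1) = wI b (0 + 1) := by
      rw [zero_sub, wI_neg, zero_add]
    rw [e1]
    refine (mul_le_mul_of_nonneg_right (min_le_right _ _) (sq_nonneg _)).trans ?_
    rw [← pow_two, ← mul_pow]
    refine pow_le_pow_left₀ (by positivity) ?_ 2
    have h3 : (b / (2 * (((0 : ℤ) : ℝ) + 2)) + 2 * (((0 : ℤ) : ℝ) + 1) / b) =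
        (b ^ 2 + 8) / (4 * b) := by
      push_cast
      field_simp
      ring
    rw [h3] at hup
    have h4 := mul_le_mul_of_nonneg_left hup (show 0 ≤ 4 * b / (b ^ 2 + 8) by positivity)
    refine h4.trans (le_of_eq ?_)
    field_simp
  · have hn1 : (1 : ℝ) ≤ n := by exact_mod_cast h
    have r0 := T1.H532.wI_rec hb.le n
    have hm : 2 * n / b * wI b n ≤ wI b (n - 1) := by
      rw [div_mul_eq_mul_div, div_le_iff₀ hb]
      nlinarith [mul_nonneg hb.le p1]
    refine (mul_le_mul_of_nonneg_right (min_le_left _ _) (sq_nonneg _)).trans ?_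
    have hK : 0 < b / (2 * ((n : ℝ) + 2)) + 2 * (n + 1) / b := by positivity
    have hu : wI b n / (b / (2 * ((n : ℝ) + 2)) + 2 * (n + 1) / b) ≤ wI b (n + 1) := by
      rw [div_le_iff₀ hK]
      linarith
    have h5 := mul_le_mul hu hm (by positivity) p1
    refine le_trans ?_ h5
    have h6 : wI b n / (b / (2 * ((n : ℝ) + 2)) + 2 * (n + 1) / b) * (2 * n / b * wI b n) =
        (2 * n / b) / (b / (2 * ((n : ℝ) + 2)) + 2 * (n + 1) / b) * wI b n ^ 2 := by
      ring
    rw [h6]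
    refine mul_le_mul_of_nonneg_right ?_ (sq_nonneg _)
    have h7 : (2 * n / b) / (b / (2 * ((n : ℝ) + 2)) + 2 * (n + 1) / b) =
        4 * n * (n + 2) / (b ^ 2 + 4 * (n + 1) * (n + 2)) := by
      field_simp
      ring
    rw [h7, div_le_div_iff₀ (by positivity) (by positivity)]
    nlinarith [sq_nonneg b, mul_nonneg (sq_nonneg b) (sub_nonneg.2 hn1),
      mul_nonneg (sub_nonneg.2 hn1) (sub_nonneg.2 hn1),
      mul_nonneg (mul_nonneg (sq_nonneg b) (sub_nonneg.2 hn1)) (sub_nonneg.2 hn1)]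

lemma turan {b : ℝ} (hb : 0 < b) (n : ℤ) :
    cT b * wI b n ^ 2 ≤ wI b (n + 1) * wI b (n - 1) := by
  rcases le_total 0 n with h | h
  · exact turan_pos hb h
  · have h1 := turan_pos hb (n := -n) (by omega)
    rw [wI_neg, show -n + 1 = -(n - 1) by ring, wI_neg, show -n - 1 = -(n + 1) by ring, wI_neg,
      mul_comm (wI b (n - 1))] at h1
    exact h1

/-! ### change of one height -/

/-- unit height at `f` -/
def dl (f : Z2) : Z2 → ℤ := Pi.single f 1

lemma dl_off {f g : Z2} (h : g ≠ f) : dl f g = 0 := Pi.single_eq_of_ne h 1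

lemma dl_self (f : Z2) : dl f f = 1 := Pi.single_eq_same f 1

/-- `h + k` at the face `f` -/
def ad {U : Finset Z2} (f : Z2) (hf : f ∈ U) (k : ℤ) (h : Ht U) : Ht U :=
  ⟨fun g => h.1 g + k * dl f g, fun g hg => by
    have h1 : g ≠ f := by
      rintro rfl
      exact hg hf
    show h.1 g + k * dl f g = 0
    rw [h.2 g hg, dl_off h1, mul_zero, add_zero]⟩

lemma ad_apply {U : Finset Z2} (f : Z2) (hf : f ∈ U) (k : ℤ) (h : Ht U) :
    (ad f hf k h).1 f = h.1 f + k := by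
  show h.1 f + k * dl f f = _
  rw [dl_self]; ring

/-- translation of the height at `f` -/
def adE {U : Finset Z2} (f : Z2) (hf : f ∈ U) (k : ℤ) : Ht U ≃ Ht U where
  toFun := ad f hf k
  invFun := ad f hf (-k)
  left_inv h := Subtype.ext (funext fun g => by
    show h.1 g + k * dl f g + -k * dl f g = h.1 g
    ring)
  right_inv h := Subtype.ext (funext fun g => by
    show h.1 g + -k * dl f g + k * dl f g = h.1 g
    ring)

lemma dh_ad {U : Finset Z2} (f : Z2) (hf : f ∈ U) (k : ℤ) (h : Ht U) (e : Bnd) :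
    dh (ad f hf k h).1 e = dh h.1 e + k * dh (dl f) e := by
  show h.1 (lf e) + k * dl f (lf e) - (h.1 (rt e) + k * dl f (rt e)) =
    h.1 (lf e) - h.1 (rt e) + k * (dl f (lf e) - dl f (rt e))
  ring

lemma dh_dl {f : Z2} {e : Bnd} (he : e ∉ sides f) : dh (dl f) e = 0 := by
  have h1 : lf e ≠ f := by
    rintro rfl
    apply he
    rcases e with ⟨⟨i, j⟩, _ | _⟩ <;> simp [sides, lf]
  have h2 : rt e ≠ f := by
    rintro rfl
    apply he
    rcases e with ⟨⟨i, j⟩, _ | _⟩ <;> simp [sides, rt]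
  show dl f (lf e) - dl f (rt e) = 0
  rw [dl_off h1, dl_off h2, sub_zero]

lemma rt_ne_lf (e : Bnd) : rt e ≠ lf e := by
  rcases e with ⟨⟨i, j⟩, _ | _⟩
  · simp [rt, lf]
  · simp [rt, lf]
    omega

lemma dh_dl_cases (f : Z2) (e : Bnd) :
    dh (dl f) e = 0 ∨ dh (dl f) e = 1 ∨ dh (dl f) e = -1 := by
  have h0 : dh (dl f) e = dl f (lf e) - dl f (rt e) := rfl
  by_cases h1 : lf e = f
  · have h2 : rt e ≠ f := fun h => rt_ne_lf e (h.trans h1.symm)
    right; left
    rw [h0, h1, dl_self, dl_off h2, sub_zero]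
  · by_cases h2 : rt e = f
    · right; right
      rw [h0, h2, dl_self, dl_off h1, zero_sub]
    · left
      rw [h0, dl_off h1, dl_off h2, sub_zero]

/-- one bond -/
lemma bond {b : ℝ} (hb : 0 < b) (f : Z2) (e : Bnd) (n : ℤ) :
    (if e ∈ sides f then cT b else 1) * wI b n ^ 2 ≤
      wI b (n + 1 * dh (dl f) e) * wI b (n + -1 * dh (dl f) e) := by
  have h1 : (if e ∈ sides f then cT b else 1) ≤ 1 := by
    split_ifs
    · exact cT_le_one b
    · exact le_refl _
  by_cases he : e ∈ sides f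
  · rw [if_pos he]
    rcases dh_dl_cases f e with h | h | h
    · rw [h, mul_zero, mul_zero, add_zero, ← pow_two]
      exact mul_le_of_le_one_left (sq_nonneg _) (cT_le_one b)
    · rw [h, show n + 1 * 1 = n + 1 by ring, show n + -1 * 1 = n - 1 by ring]
      exact turan hb n
    · rw [h, show n + 1 * -1 = n - 1 by ring, show n + -1 * -1 = n + 1 by ring, mul_comm (wI b _)]
      exact turan hb n
  · rw [if_neg he, dh_dl he, mul_zero, mul_zero, add_zero, ← pow_two, one_mul]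

lemma prod_ind {b : ℝ} (hb : 0 < b) (U : Finset Z2) (f : Z2) :
    cT b ^ 4 ≤ ∏ e ∈ bd U, (if e ∈ sides f then cT b else 1) := by
  rw [Finset.prod_ite, Finset.prod_const_one, mul_one, Finset.prod_const]
  refine pow_le_pow_of_le_one (cT_pos hb).le (cT_le_one b) ?_
  refine (Finset.card_le_card (t := sides f) fun e he => (Finset.mem_filter.1 he).2).trans ?_
  exact Finset.card_le_four

/-- the product of the two weights -/
lemma wt_mul {b : ℝ} (hb : 0 < b) {U : Finset Z2} {f : Z2} (hf : f ∈ U) (h : Ht U) :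
    (cT b ^ 2 * wt b U 0 h.1) ^ 2 ≤ wt b U 0 (ad f hf 1 h).1 * wt b U 0 (ad f hf (-1) h).1 := by
  have e1 : ∀ k : ℤ, wt b U 0 (ad f hf k h).1 =
      ∏ e ∈ bd U, wI b (dh h.1 e + k * dh (dl f) e) := fun k => by
    rw [H910.wt_eq]
    exact Finset.prod_congr rfl fun e _ => by rw [dh_ad]
  rw [e1, e1, ← Finset.prod_mul_distrib, H910.wt_eq]
  have h1 : ∏ e ∈ bd U, ((if e ∈ sides f then cT b else 1) * wI b (dh h.1 e) ^ 2) ≤
      ∏ e ∈ bd U, wI b (dh h.1 e + 1 * dh (dl f) e) * wI b (dh h.1 e + -1 * dh (dl f) e) := by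
    refine Finset.prod_le_prod (fun e _ => ?_) fun e _ => bond hb f e _
    refine mul_nonneg ?_ (sq_nonneg _)
    split_ifs
    · exact (cT_pos hb).le
    · exact zero_le_one
  refine le_trans ?_ h1
  rw [Finset.prod_mul_distrib, Finset.prod_pow, mul_pow]
  refine mul_le_mul_of_nonneg_right ?_ (sq_nonneg _)
  rw [← pow_mul]
  exact prod_ind hb U f

lemma wt_add {b : ℝ} (hb : 0 < b) {U : Finset Z2} {f : Z2} (hf : f ∈ U) (h : Ht U) :
    2 * (cT b ^ 2 * wt b U 0 h.1) ≤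
      wt b U 0 (ad f hf 1 h).1 + wt b U 0 (ad f hf (-1) h).1 := by
  have h1 := wt_mul hb hf h
  have h2 := wt_nonneg hb.le U 0 (ad f hf 1 h).1
  have h3 := wt_nonneg hb.le U 0 (ad f hf (-1) h).1
  have h4 : 0 ≤ cT b ^ 2 * wt b U 0 h.1 := mul_nonneg (sq_nonneg _) (wt_nonneg hb.le U 0 h.1)
  refine (le_abs_self _).trans (abs_le_of_sq_le_sq ?_ (by positivity))
  nlinarith [sq_nonneg (wt b U 0 (ad f hf 1 h).1 - wt b U 0 (ad f hf (-1) h).1)]

/-! ### symmetry -/

/-- `h ↦ -h` -/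
def ngE (U : Finset Z2) : Ht U ≃ Ht U where
  toFun h := ⟨fun g => -h.1 g, fun g hg => by show -h.1 g = 0; rw [h.2 g hg, neg_zero]⟩
  invFun h := ⟨fun g => -h.1 g, fun g hg => by show -h.1 g = 0; rw [h.2 g hg, neg_zero]⟩
  left_inv h := Subtype.ext (funext fun g => neg_neg _)
  right_inv h := Subtype.ext (funext fun g => neg_neg _)

lemma wt_ng (b : ℝ) (U : Finset Z2) (h : Ht U) : wt b U 0 (ngE U h).1 = wt b U 0 h.1 := by
  rw [H910.wt_eq, H910.wt_eq]
  refine Finset.prod_congr rfl fun e _ => ?_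
  rw [← wI_neg b (dh h.1 e)]
  congr 1
  show -h.1 (lf e) - -h.1 (rt e) = -(h.1 (lf e) - h.1 (rt e))
  ring

/-! ### the sums -/

/-- restricted sum -/
noncomputable def SS (b : ℝ) (U : Finset Z2) (f : Z2) (X : Set ℤ) : ℝ :=
  ∑' h : Ht U, wt b U 0 h.1 * X.indicator (fun _ => (1 : ℝ)) (h.1 f)

lemma ind_nonneg (X : Set ℤ) (n : ℤ) : 0 ≤ X.indicator (fun _ => (1 : ℝ)) n :=
  Set.indicator_nonneg (fun _ _ => zero_le_one) _

lemma ind_le_one (X : Set ℤ) (n : ℤ) : X.indicator (fun _ => (1 : ℝ)) n ≤ 1 :=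
  Set.indicator_le' (fun _ _ => le_refl _) (fun _ _ => zero_le_one) n

lemma summ {b : ℝ} (hb : 0 ≤ b) (U : Finset Z2) (f : Z2) (X : Set ℤ) :
    Summable fun h : Ht U => wt b U 0 h.1 * X.indicator (fun _ => (1 : ℝ)) (h.1 f) :=
  Summable.of_nonneg_of_le (fun h => mul_nonneg (wt_nonneg hb U 0 h.1) (ind_nonneg _ _))
    (fun h => mul_le_of_le_one_right (wt_nonneg hb U 0 h.1) (ind_le_one _ _)) (summable_one hb U 0)

lemma SS_mono {b : ℝ} (hb : 0 ≤ b) (U : Finset Z2) (f : Z2) {X Y : Set ℤ} (h : X ⊆ Y) :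
    SS b U f X ≤ SS b U f Y := by
  refine (summ hb U f X).tsum_le_tsum (fun g => ?_) (summ hb U f Y)
  exact mul_le_mul_of_nonneg_left
    (Set.indicator_le_indicator_of_subset h (fun _ => zero_le_one) _) (wt_nonneg hb U 0 g.1)

lemma SS_ng (b : ℝ) (U : Finset Z2) (f : Z2) {X Y : Set ℤ} (h : ∀ n, n ∈ X ↔ -n ∈ Y) :
    SS b U f X = SS b U f Y := by
  unfold SS
  rw [← (ngE U).tsum_eq fun g : Ht U => wt b U 0 g.1 * Y.indicator (fun _ => (1 : ℝ)) (g.1 f)]
  refine tsum_congr fun g => ?_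
  rw [wt_ng]
  congr 1
  show X.indicator (fun _ => (1 : ℝ)) (g.1 f) = Y.indicator (fun _ => (1 : ℝ)) (-g.1 f)
  by_cases hx : g.1 f ∈ X
  · rw [Set.indicator_of_mem hx, Set.indicator_of_mem ((h _).1 hx)]
  · rw [Set.indicator_of_notMem hx, Set.indicator_of_notMem fun hy => hx ((h _).2 hy)]

lemma Z_split {b : ℝ} (hb : 0 ≤ b) (U : Finset Z2) (f : Z2) :
    Z b U = SS b U f {0} + SS b U f (Set.Ici 1) + SS b U f (Set.Iic (-1)) := by
  unfold Z SS
  rw [← (summ hb U f {0}).tsum_add (summ hb U f (Set.Ici 1)),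
    ← ((summ hb U f {0}).add (summ hb U f (Set.Ici 1))).tsum_add (summ hb U f (Set.Iic (-1)))]
  refine tsum_congr fun g => ?_
  rw [← mul_add, ← mul_add]
  have h1 : Set.indicator ({0} : Set ℤ) (fun _ => (1 : ℝ)) (g.1 f) +
      (Set.Ici (1 : ℤ)).indicator (fun _ => (1 : ℝ)) (g.1 f) +
      (Set.Iic (-1 : ℤ)).indicator (fun _ => (1 : ℝ)) (g.1 f) = 1 := by
    rcases lt_trichotomy (g.1 f) 0 with h | h | h
    · rw [Set.indicator_of_notMem (by simp; omega), Set.indicator_of_notMem (by simp; omega),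
        Set.indicator_of_mem (by simp; omega)]
      norm_num
    · rw [Set.indicator_of_mem (by simp [h]), Set.indicator_of_notMem (by simp; omega),
        Set.indicator_of_notMem (by simp; omega)]
      norm_num
    · rw [Set.indicator_of_notMem (by simp; omega), Set.indicator_of_mem (by simp; omega),
        Set.indicator_of_notMem (by simp; omega)]
      norm_num
  rw [h1, mul_one]

lemma SS_shift {b : ℝ} {U : Finset Z2} {f : Z2} (hf : f ∈ U) (k : ℤ) :
    SS b U f {k} = ∑' h : Ht U, wt b U 0 (ad f hf k h).1 *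
      Set.indicator ({0} : Set ℤ) (fun _ => (1 : ℝ)) (h.1 f) := by
  unfold SS
  rw [← (adE f hf k).tsum_eq fun g : Ht U => wt b U 0 g.1 *
    Set.indicator ({k} : Set ℤ) (fun _ => (1 : ℝ)) (g.1 f)]
  refine tsum_congr fun g => ?_
  show wt b U 0 (ad f hf k g).1 * Set.indicator ({k} : Set ℤ) (fun _ => (1 : ℝ))
    ((ad f hf k g).1 f) = _
  congr 1
  rw [ad_apply]
  by_cases hx : g.1 f = 0
  · rw [Set.indicator_of_mem (by simp [hx]), Set.indicator_of_mem (by simp [hx])]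
  · rw [Set.indicator_of_notMem (by simp [hx]), Set.indicator_of_notMem (by simp [hx])]

lemma summ_shift {b : ℝ} (hb : 0 ≤ b) {U : Finset Z2} {f : Z2} (hf : f ∈ U) (k : ℤ) :
    Summable fun h : Ht U => wt b U 0 (ad f hf k h).1 *
      Set.indicator ({0} : Set ℤ) (fun _ => (1 : ℝ)) (h.1 f) := by
  refine Summable.of_nonneg_of_le (fun h => mul_nonneg (wt_nonneg hb U 0 _) (ind_nonneg _ _))
    (fun h => mul_le_of_le_one_right (wt_nonneg hb U 0 _) (ind_le_one _ _)) ?_
  have h1 : Summable ((fun g : Ht U => wt b U 0 g.1) ∘ (adE f hf k)) :=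
    (Equiv.summable_iff (adE f hf k)).2 (summable_one hb U 0)
  exact h1

lemma SS_zero {b : ℝ} (hb : 0 < b) {U : Finset Z2} {f : Z2} (hf : f ∈ U) :
    2 * (cT b ^ 2 * SS b U f {0}) ≤ SS b U f {1} + SS b U f {-1} := by
  rw [SS_shift hf 1, SS_shift hf (-1), ← (summ_shift hb.le hf 1).tsum_add (summ_shift hb.le hf (-1))]
  unfold SS
  rw [← tsum_mul_left, ← tsum_mul_left]
  refine (((summ hb.le U f {0}).mul_left _).mul_left _).tsum_le_tsum (fun h => ?_)
    ((summ_shift hb.le hf 1).add (summ_shift hb.le hf (-1)))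
  rw [← add_mul, ← mul_assoc, ← mul_assoc, mul_assoc 2]
  exact mul_le_mul_of_nonneg_right (wt_add hb hf h) (ind_nonneg _ _)

lemma Z_le {b : ℝ} (hb : 0 < b) {U : Finset Z2} {f : Z2} (hf : f ∈ U) :
    cT b ^ 2 / (1 + 2 * cT b ^ 2) * Z b U ≤ SS b U f (Set.Ici 1) := by
  have h1 := SS_zero hb hf
  have h2 := SS_mono hb.le U f (X := {1}) (Y := Set.Ici 1) (by simp)
  have h3 := SS_mono hb.le U f (X := {-1}) (Y := Set.Iic (-1)) (by simp)
  have h4 : SS b U f (Set.Iic (-1)) = SS b U f (Set.Ici 1) :=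
    SS_ng b U f fun n => by simp only [Set.mem_Iic, Set.mem_Ici]; omega
  have h5 := Z_split hb.le U f
  have h6 : 0 < cT b ^ 2 := pow_pos (cT_pos hb) 2
  rw [div_mul_eq_mul_div, div_le_iff₀ (by positivity)]
  rw [h4] at h3 h5
  rw [h5]
  nlinarith

/-- **D.TIP** -/
theorem stmtTip : StmtTip := by
  intro b hb
  refine ⟨cT b ^ 2 / (1 + 2 * cT b ^ 2), ?_, fun U f hf => ?_⟩
  · have h6 : 0 < cT b ^ 2 := pow_pos (cT_pos hb) 2
    positivity
  · unfold E
    rw [le_div_iff₀ (H910.Z_pos hb.le U)]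
    refine (Z_le hb hf).trans (le_of_eq ?_)
    unfold SS
    refine tsum_congr fun h => ?_
    show _ = wt b U 0 h.1 * (if 1 ≤ h.1 f then (1 : ℝ) else 0)
    by_cases h1 : 1 ≤ h.1 f
    · rw [if_pos h1, Set.indicator_of_mem (show h.1 f ∈ Set.Ici (1 : ℤ) from h1)]
    · rw [if_neg h1, Set.indicator_of_notMem (show h.1 f ∉ Set.Ici (1 : ℤ) from h1)]

end Vale.Agent.P159.T1.D.H85
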